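import Vale.Agent.P121.Main

/-!
# P121: every Monge plan of the counterexample is strictly suboptimal

The same counterexample as in `NoOptimalMonge`, stated with Mathlib notions only and in the
wording of the problem: the Kantorovich value is characterised as the greatest lower bound of the
costs of all couplings, every Monge plan `(Id, T₂, T₃)_# μ` is a coupling whose cost is
`∫ c(x, T₂ x, T₃ x) dμ`, and this cost is strictly larger than the Kantorovich value.
-/

open MeasureTheory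
open scoped ENNReal

namespace Vale.Agent.Results.P121.EveryMongePlanStrict

open Vale.Agent.P121

/-- There are a Borel probability measure `μ ≪ Lebesgue` on `ℝ³` and a finite number `Emin` such
that, `c` denoting the Coulomb cost, `Emin` is the greatest lower bound of the costs `∫ c dπ` of
all couplings `π` with the three marginals `μ`, and for all measurable `μ`-preserving maps
`T₂, T₃` the Monge plan `π = (Id, T₂, T₃)_# μ` is such a coupling, its cost is
`∫ c(x, T₂ x, T₃ x) dμ`, and this cost is strictly larger than `Emin`. -/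
theorem result :
    ∃ (μ : Measure (EuclideanSpace ℝ (Fin 3))) (Emin : ℝ≥0∞),
      IsProbabilityMeasure μ ∧ μ ≪ volume ∧ Emin < ⊤ ∧
      ∀ c : EuclideanSpace ℝ (Fin 3) → EuclideanSpace ℝ (Fin 3) → EuclideanSpace ℝ (Fin 3) → ℝ≥0∞,
        (∀ x y z, c x y z = (ENNReal.ofReal (dist x y))⁻¹ + (ENNReal.ofReal (dist x z))⁻¹
          + (ENNReal.ofReal (dist y z))⁻¹) →
        IsGLB {v : ℝ≥0∞ | ∃ π : Measure (EuclideanSpace ℝ (Fin 3) × EuclideanSpace ℝ (Fin 3) ×
            EuclideanSpace ℝ (Fin 3)), π.map (fun p => p.1) = μ ∧ π.map (fun p => p.2.1) = μ ∧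
          π.map (fun p => p.2.2) = μ ∧ v = ∫⁻ p, c p.1 p.2.1 p.2.2 ∂π} Emin ∧
        ∀ T₂ T₃, Measurable T₂ → Measurable T₃ → μ.map T₂ = μ → μ.map T₃ = μ →
          (∃ π : Measure (EuclideanSpace ℝ (Fin 3) × EuclideanSpace ℝ (Fin 3) ×
              EuclideanSpace ℝ (Fin 3)),
            π = μ.map (fun x => (x, T₂ x, T₃ x)) ∧ π.map (fun p => p.1) = μ ∧
            π.map (fun p => p.2.1) = μ ∧ π.map (fun p => p.2.2) = μ ∧
            ∫⁻ p, c p.1 p.2.1 p.2.2 ∂π = ∫⁻ x, c x (T₂ x) (T₃ x) ∂μ) ∧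
          Emin < ∫⁻ x, c x (T₂ x) (T₃ x) ∂μ := by
  obtain ⟨μ, hp, hac, hfin, hno⟩ := main_theorem
  refine ⟨μ, kantorovich μ, hp, hac, hfin, ?_⟩
  intro c hc
  have hcc : c = coulomb := by
    funext x y z
    exact hc x y z
  subst hcc
  refine ⟨⟨?_, ?_⟩, ?_⟩
  · rintro v ⟨π, h1, h2, h3, rfl⟩
    exact iInf₂_le π (⟨h1, h2, h3⟩ : IsCoupling μ π)
  · intro b hb
    refine le_iInf₂ fun π hπ => hb ⟨π, hπ.1, hπ.2.1, hπ.2.2, rfl⟩
  · intro T₂ T₃ h2 h3 hm2 hm3
    have hF : Measurable (fun x : E3 => ((x, T₂ x, T₃ x) : E3 × E3 × E3)) :=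
      Measurable.prodMk measurable_id (Measurable.prodMk h2 h3)
    have c1 : (μ.map (fun x : E3 => ((x, T₂ x, T₃ x) : E3 × E3 × E3))).map (fun p => p.1) = μ := by
      rw [Measure.map_map measurable_fst hF]
      exact Measure.map_id
    have c2 : (μ.map (fun x : E3 => ((x, T₂ x, T₃ x) : E3 × E3 × E3))).map (fun p => p.2.1)
        = μ := by
      rw [Measure.map_map measurable_snd.fst hF]
      exact hm2
    have c3 : (μ.map (fun x : E3 => ((x, T₂ x, T₃ x) : E3 × E3 × E3))).map (fun p => p.2.2)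
        = μ := by
      rw [Measure.map_map measurable_snd.snd hF]
      exact hm3
    have hcost : ∫⁻ p, coulomb p.1 p.2.1 p.2.2
          ∂(μ.map (fun x : E3 => ((x, T₂ x, T₃ x) : E3 × E3 × E3)))
        = ∫⁻ x, coulomb x (T₂ x) (T₃ x) ∂μ := lintegral_map measurable_coulomb hF
    refine ⟨⟨_, rfl, c1, c2, c3, hcost⟩, ?_⟩
    have hle : kantorovich μ ≤ ∫⁻ x, coulomb x (T₂ x) (T₃ x) ∂μ := by
      rw [← hcost]
      exact iInf₂_le (f := fun (π : Measure (E3 × E3 × E3)) (_ : IsCoupling μ π) =>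
        ∫⁻ p, coulomb p.1 p.2.1 p.2.2 ∂π)
        (μ.map (fun x : E3 => ((x, T₂ x, T₃ x) : E3 × E3 × E3))) ⟨c1, c2, c3⟩
    exact lt_of_le_of_ne hle fun he => hno ⟨T₂, T₃, h2, h3, hm2, hm3, he.symm⟩

end Vale.Agent.Results.P121.EveryMongePlanStrict
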