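import Vale.Agent.P121.Main

/-!
# P121: an absolutely continuous marginal with finite three-marginal Coulomb energy
and no optimal Monge plan
-/

open MeasureTheory
open scoped ENNReal

/-- There is a Borel probability measure `μ` on `ℝ³`, absolutely continuous with respect to
Lebesgue measure, with finite Kantorovich value for the three-marginal Coulomb cost, such that no
Monge plan `(Id, T₂, T₃)_# μ` attains the Kantorovich value. -/
theorem Vale.Agent.Results.P121.NoOptimalMonge.result :
    ∃ μ : Measure Vale.Agent.P121.E3, IsProbabilityMeasure μ ∧ μ ≪ volume ∧
      Vale.Agent.P121.kantorovich μ < ⊤ ∧ ¬ Vale.Agent.P121.HasOptimalMongePlan μ :=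
  Vale.Agent.P121.main_theorem
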