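import Vale.Agent.P121.Main

/-!
# P121: the counterexample stated with Mathlib notions only
-/

open MeasureTheory
open scoped ENNReal

/-- There is a Borel probability measure `μ` on `ℝ³`, absolutely continuous with respect to
Lebesgue measure, such that the infimum of the three-marginal Coulomb cost over all couplings with
the three marginals `μ` is finite, and no pair of measurable `μ`-preserving maps `T₂, T₃` has
`∫ c(x, T₂ x, T₃ x) dμ` equal to that infimum.  No definition of ours occurs in the statement. -/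
theorem Vale.Agent.Results.P121.PlainStatement.result :
    ∃ μ : Measure (EuclideanSpace ℝ (Fin 3)), IsProbabilityMeasure μ ∧ μ ≪ volume ∧
      (⨅ (π : Measure (EuclideanSpace ℝ (Fin 3) × EuclideanSpace ℝ (Fin 3) ×
            EuclideanSpace ℝ (Fin 3)))
          (_ : π.map (fun p => p.1) = μ ∧ π.map (fun p => p.2.1) = μ ∧
            π.map (fun p => p.2.2) = μ),
          ∫⁻ p, ((ENNReal.ofReal (dist p.1 p.2.1))⁻¹ + (ENNReal.ofReal (dist p.1 p.2.2))⁻¹
            + (ENNReal.ofReal (dist p.2.1 p.2.2))⁻¹) ∂π) < ⊤ ∧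
      ¬ ∃ T₂ T₃ : EuclideanSpace ℝ (Fin 3) → EuclideanSpace ℝ (Fin 3),
        Measurable T₂ ∧ Measurable T₃ ∧ μ.map T₂ = μ ∧ μ.map T₃ = μ ∧
        ∫⁻ x, ((ENNReal.ofReal (dist x (T₂ x)))⁻¹ + (ENNReal.ofReal (dist x (T₃ x)))⁻¹
            + (ENNReal.ofReal (dist (T₂ x) (T₃ x)))⁻¹) ∂μ =
          ⨅ (π : Measure (EuclideanSpace ℝ (Fin 3) × EuclideanSpace ℝ (Fin 3) ×
            EuclideanSpace ℝ (Fin 3)))
          (_ : π.map (fun p => p.1) = μ ∧ π.map (fun p => p.2.1) = μ ∧
            π.map (fun p => p.2.2) = μ),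
          ∫⁻ p, ((ENNReal.ofReal (dist p.1 p.2.1))⁻¹ + (ENNReal.ofReal (dist p.1 p.2.2))⁻¹
            + (ENNReal.ofReal (dist p.2.1 p.2.2))⁻¹) ∂π :=
  Vale.Agent.P121.main_theorem
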